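import Vale.Agent.P139.R2.H182.FinC
import Vale.Agent.P139.R2.H959.R10a

/-!
# P139, stage 2, S4 (B): the size of the datum with an explicit constant

For one deterministic sample `γ : Lat d → ℂ` with `∑ ‖γ n‖ / W (2 d) n ≤ M` the weighted norms of
the datum are at most `C M 2 ^ (-α / 4)` (weights `WW α N`) and `C M 2 ^ (-α / 2)` (the algebra
`WA d k`), where `C` and the threshold of `α` depend on `d`, `k` only.
-/

set_option autoImplicit false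

open MvPolynomial Finset
open scoped ComplexConjugate ENNReal

namespace Vale.Agent.P139.BN

open Vale.Agent.P139.A Vale.Agent.P139.A.WA Vale.Agent.P139.R2P

variable {d : ℕ}

/-- The total size of the sample. -/
noncomputable def GG {d : ℕ} (γ : Lat d → ℂ) : ℝ := ∑' n, ‖γ n‖ * (A.W (2 * d) n)⁻¹

theorem GG_term_nonneg (γ : Lat d → ℂ) (n : Lat d) : 0 ≤ ‖γ n‖ * (A.W (2 * d) n)⁻¹ :=
  mul_nonneg (norm_nonneg _) (inv_pos.2 (W_pos n)).le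

theorem GG_nonneg (γ : Lat d → ℂ) : 0 ≤ GG γ := tsum_nonneg (GG_term_nonneg γ)

theorem le_GG_mul {γ : Lat d → ℂ} (hs : Summable fun n => ‖γ n‖ * (A.W (2 * d) n)⁻¹)
    (n : Lat d) : ‖γ n‖ ≤ GG γ * A.W (2 * d) n := by
  have h1 : ‖γ n‖ * (A.W (2 * d) n)⁻¹ ≤ GG γ := hs.le_tsum n fun j _ => GG_term_nonneg γ j
  have h2 := W_pos (k := 2 * d) n
  rwa [← div_eq_mul_inv, div_le_iff₀ h2] at h1

/-- The square of one term of the weighted norm. -/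
theorem datum_term_sq_le (k : ℕ) {α : ℝ}
    (hα : 2 * ((2 * (k + d + 1) + 3 * d : ℕ) : ℝ) ≤ α) (N : ℕ) {γ : Lat d → ℂ}
    (hs : Summable fun n => ‖γ n‖ * (A.W (2 * d) n)⁻¹) {n : Lat d} (hn0 : n ≠ 0) :
    (WW α N n * (1 + sqNorm n) ^ (k + d + 1) *
      ‖γ n * ((Real.sqrt (1 + sqNorm n) ^ (-α) : ℝ) : ℂ)‖) ^ 2 ≤
      (2 : ℝ) ^ ((2 * (k + d + 1) + 3 * d : ℕ) : ℝ) * (GG γ ^ 2 * 2 ^ (2 * d) * 2 ^ d) *
        (2 : ℝ) ^ (-α / 2) * (A.W (2 * d) n)⁻¹ := by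
  have hG0 := GG_nonneg γ
  set G : ℝ := GG γ with hG
  set r : ℕ := 2 * (k + d + 1) with hr
  set b : ℕ := r + 3 * d with hb
  have hs1 := one_le_sqNorm hn0
  have hp : 0 < 1 + sqNorm n := by linarith
  have h1 := WW_mul_le hα N hn0
  have h2 : (Real.sqrt (1 + sqNorm n) ^ (-(b : ℝ))) ^ 2 = ((1 + sqNorm n) ^ b)⁻¹ := by
    rw [Real.rpow_neg (Real.sqrt_nonneg _), Real.rpow_natCast, inv_pow, ← pow_mul, mul_comm b 2,
      pow_mul, Real.sq_sqrt hp.le]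
  have h3 : ‖γ n‖ ^ 2 ≤ G ^ 2 * (2 ^ (2 * d) * (1 + sqNorm n) ^ (2 * d)) := by
    have h4 : ‖γ n‖ ≤ G * (2 ^ d * (1 + sqNorm n) ^ d) :=
      (le_GG_mul hs n).trans (mul_le_mul_of_nonneg_left (W_le_pow d n) hG0)
    calc ‖γ n‖ ^ 2 ≤ (G * (2 ^ d * (1 + sqNorm n) ^ d)) ^ 2 :=
          pow_le_pow_left₀ (norm_nonneg _) h4 2
      _ = _ := by ring
  have h5 : ((2 : ℝ) ^ (-(α - 2 * b) / 4)) ^ 2 = (2 : ℝ) ^ (b : ℝ) * (2 : ℝ) ^ (-α / 2) := by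
    rw [sq, ← Real.rpow_add (by norm_num), ← Real.rpow_add (by norm_num)]
    congr 1
    ring
  have h6 : (1 + sqNorm n) ^ r * ((1 + sqNorm n) ^ b)⁻¹ * (1 + sqNorm n) ^ (2 * d) =
      ((1 + sqNorm n) ^ d)⁻¹ := by
    rw [hb]
    have : (1 + sqNorm n) ^ (r + 3 * d) = (1 + sqNorm n) ^ r * (1 + sqNorm n) ^ (2 * d) *
        (1 + sqNorm n) ^ d := by
      rw [← pow_add, ← pow_add]
      congr 1
      omega
    rw [this]
    have h7 : (1 + sqNorm n) ^ r ≠ 0 := by positivity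
    have h8 : (1 + sqNorm n) ^ (2 * d) ≠ 0 := by positivity
    have h9 : (1 + sqNorm n) ^ d ≠ 0 := by positivity
    field_simp
  have hJ : 0 ≤ Real.sqrt (1 + sqNorm n) ^ (-α) := Real.rpow_nonneg (Real.sqrt_nonneg _) _
  have hnorm : ‖γ n * ((Real.sqrt (1 + sqNorm n) ^ (-α) : ℝ) : ℂ)‖ =
      ‖γ n‖ * Real.sqrt (1 + sqNorm n) ^ (-α) := by
    rw [norm_mul, Complex.norm_real, Real.norm_of_nonneg hJ]
  have hW0 := (WW_pos α N n).le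
  rw [hnorm]
  calc (WW α N n * (1 + sqNorm n) ^ (k + d + 1) *
        (‖γ n‖ * Real.sqrt (1 + sqNorm n) ^ (-α))) ^ 2
      = (WW α N n * Real.sqrt (1 + sqNorm n) ^ (-α)) ^ 2 *
          ((1 + sqNorm n) ^ r * ‖γ n‖ ^ 2) := by
        rw [hr]
        ring
    _ ≤ ((2 : ℝ) ^ (-(α - 2 * b) / 4) * Real.sqrt (1 + sqNorm n) ^ (-(b : ℝ))) ^ 2 *
          ((1 + sqNorm n) ^ r * (G ^ 2 * (2 ^ (2 * d) * (1 + sqNorm n) ^ (2 * d)))) := by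
        gcongr
    _ = ((2 : ℝ) ^ (-(α - 2 * b) / 4)) ^ 2 * (G ^ 2 * 2 ^ (2 * d)) *
          ((1 + sqNorm n) ^ r * (Real.sqrt (1 + sqNorm n) ^ (-(b : ℝ))) ^ 2 *
            (1 + sqNorm n) ^ (2 * d)) := by ring
    _ = ((2 : ℝ) ^ (b : ℝ) * (2 : ℝ) ^ (-α / 2)) * (G ^ 2 * 2 ^ (2 * d)) *
          ((1 + sqNorm n) ^ d)⁻¹ := by rw [h5, h2, h6]
    _ ≤ ((2 : ℝ) ^ (b : ℝ) * (2 : ℝ) ^ (-α / 2)) * (G ^ 2 * 2 ^ (2 * d)) *
          (2 ^ d * (A.W (2 * d) n)⁻¹) := by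
        have := inv_pow_le n
        gcongr
    _ = _ := by ring

/-- The constant of the data bound. -/
noncomputable def CD (d k : ℕ) : ℝ :=
  1 + Real.sqrt ((2 : ℝ) ^ ((2 * (k + d + 1) + 3 * d : ℕ) : ℝ) * (2 ^ (2 * d) * 2 ^ d) *
    ∑' n : Lat d, (A.W (2 * d) n)⁻¹)

theorem one_le_CD (d k : ℕ) : 1 ≤ CD d k := by
  unfold CD
  exact le_add_of_nonneg_right (Real.sqrt_nonneg _)

/-- The threshold of the data bound. -/
noncomputable def AD (d k : ℕ) : ℝ := 2 * ((2 * (k + d + 1) + 3 * d : ℕ) : ℝ)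

/-- **Data bound, explicit.** The constant times the size `GG γ` of the sample. -/
theorem data_bd_GG (k : ℕ) {γ : Lat d → ℂ}
    (hs : Summable fun n => ‖γ n‖ * (A.W (2 * d) n)⁻¹) {α : ℝ} (hα : AD d k ≤ α) (N : ℕ)
    (B : Finset (Lat d)) (hB : (0 : Lat d) ∉ B) :
    nL B (fun n => WW α N n * (1 + sqNorm n) ^ (k + d + 1))
      (fun n => γ n * ((Real.sqrt (1 + sqNorm n) ^ (-α) : ℝ) : ℂ)) ≤
      CD d k * GG γ * (2 : ℝ) ^ (-α / 4) := by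
  have hG0 := GG_nonneg γ
  set Z : ℝ := ∑' n : Lat d, (A.W (2 * d) n)⁻¹ with hZ
  have hZ0 : 0 ≤ Z := tsum_nonneg fun n => (inv_pos.2 (W_pos n)).le
  set E : ℝ := (2 : ℝ) ^ ((2 * (k + d + 1) + 3 * d : ℕ) : ℝ) * (2 ^ (2 * d) * 2 ^ d) with hE
  have hE0 : 0 ≤ E := by positivity
  have key : ∀ n ∈ B, (WW α N n * (1 + sqNorm n) ^ (k + d + 1) *
      ‖γ n * ((Real.sqrt (1 + sqNorm n) ^ (-α) : ℝ) : ℂ)‖) ^ 2 ≤
      E * GG γ ^ 2 * (2 : ℝ) ^ (-α / 2) * (A.W (2 * d) n)⁻¹ := by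
    intro n hn
    have hn0 : n ≠ 0 := fun h => hB (h ▸ hn)
    refine (datum_term_sq_le k hα N hs hn0).trans (le_of_eq ?_)
    rw [hE]
    ring
  have hsum : ∑ n ∈ B, (WW α N n * (1 + sqNorm n) ^ (k + d + 1) *
      ‖γ n * ((Real.sqrt (1 + sqNorm n) ^ (-α) : ℝ) : ℂ)‖) ^ 2 ≤
      (E * Z) * (GG γ ^ 2 * (2 : ℝ) ^ (-α / 2)) := by
    calc _ ≤ ∑ n ∈ B, E * GG γ ^ 2 * (2 : ℝ) ^ (-α / 2) * (A.W (2 * d) n)⁻¹ :=
          Finset.sum_le_sum key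
      _ = E * GG γ ^ 2 * (2 : ℝ) ^ (-α / 2) * ∑ n ∈ B, (A.W (2 * d) n)⁻¹ := by
          rw [Finset.mul_sum]
      _ ≤ E * GG γ ^ 2 * (2 : ℝ) ^ (-α / 2) * Z := by
          have := (summable_W_inv d).sum_le_tsum B fun n _ => (inv_pos.2 (W_pos n)).le
          gcongr
      _ = _ := by ring
  unfold nL
  have h7 : Real.sqrt ((2 : ℝ) ^ (-α / 2)) = (2 : ℝ) ^ (-α / 4) := by
    rw [Real.sqrt_eq_rpow, ← Real.rpow_mul (by norm_num)]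
    congr 1
    ring
  have hC : Real.sqrt (E * Z) ≤ CD d k := by
    unfold CD
    linarith
  calc _ ≤ Real.sqrt ((E * Z) * (GG γ ^ 2 * (2 : ℝ) ^ (-α / 2))) := Real.sqrt_le_sqrt hsum
    _ = Real.sqrt (E * Z) * (GG γ * (2 : ℝ) ^ (-α / 4)) := by
        rw [Real.sqrt_mul (mul_nonneg hE0 hZ0) (GG γ ^ 2 * (2 : ℝ) ^ (-α / 2)),
          Real.sqrt_mul (sq_nonneg (GG γ)) ((2 : ℝ) ^ (-α / 2)), h7, Real.sqrt_sq hG0]
    _ ≤ CD d k * (GG γ * (2 : ℝ) ^ (-α / 4)) := by gcongr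
    _ = _ := by ring

/-- **Data bound, explicit.** As `DataBd`, the constant is linear in the size of the sample. -/
theorem data_bd (k : ℕ) {γ : Lat d → ℂ} {M : ℝ}
    (hs : Summable fun n => ‖γ n‖ * (A.W (2 * d) n)⁻¹)
    (hM : ∑' n, ‖γ n‖ * (A.W (2 * d) n)⁻¹ ≤ M) {α : ℝ} (hα : AD d k ≤ α) (N : ℕ)
    (B : Finset (Lat d)) (hB : (0 : Lat d) ∉ B) :
    nL B (fun n => WW α N n * (1 + sqNorm n) ^ (k + d + 1))
      (fun n => γ n * ((Real.sqrt (1 + sqNorm n) ^ (-α) : ℝ) : ℂ)) ≤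
      CD d k * M * (2 : ℝ) ^ (-α / 4) := by
  refine (data_bd_GG k hs hα N B hB).trans ?_
  have h1 : GG γ ≤ M := hM
  have h2 : 0 ≤ CD d k := zero_le_one.trans (one_le_CD d k)
  gcongr

/-- **The datum as an element, explicit.** -/
theorem datum_elem_bd (k : ℕ) {γ : Lat d → ℂ} {M : ℝ}
    (hs : Summable fun n => ‖γ n‖ * (A.W (2 * d) n)⁻¹)
    (hM : ∑' n, ‖γ n‖ * (A.W (2 * d) n)⁻¹ ≤ M) {α : ℝ} (hα : ((k + 2 * d : ℕ) : ℝ) ≤ α) :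
    ∃ b : WA d k,
      (∀ n, coef b n = if n = 0 then 0 else γ n * ((Real.sqrt (1 + sqNorm n) ^ (-α) : ℝ) : ℂ)) ∧
      ‖b‖ ≤ (2 : ℝ) ^ (k + 2 * d) * M * (2 : ℝ) ^ (-α / 2) := by
  have hnorm : ∀ n, ‖γ n * ((Real.sqrt (1 + sqNorm n) ^ (-α) : ℝ) : ℂ)‖ =
      ‖γ n‖ * Real.sqrt (1 + sqNorm n) ^ (-α) := fun n => by
    rw [norm_mul, Complex.norm_real]
    rw [Real.norm_of_nonneg (Real.rpow_nonneg (Real.sqrt_nonneg _) _)]
  have hbound : ∀ n, A.W k n *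
      ‖(if n = 0 then 0 else γ n * ((Real.sqrt (1 + sqNorm n) ^ (-α) : ℝ) : ℂ) : ℂ)‖ ≤
      (2 : ℝ) ^ (k + 2 * d) * (2 : ℝ) ^ (-α / 2) * (‖γ n‖ * (A.W (2 * d) n)⁻¹) := by
    intro n
    by_cases hn : n = 0
    · rw [if_pos hn, norm_zero, mul_zero]
      exact mul_nonneg (by positivity) (GG_term_nonneg γ n)
    · rw [if_neg hn, hnorm]
      calc A.W k n * (‖γ n‖ * Real.sqrt (1 + sqNorm n) ^ (-α))
          = ‖γ n‖ * (A.W k n * Real.sqrt (1 + sqNorm n) ^ (-α)) := by ring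
        _ ≤ ‖γ n‖ * ((2 : ℝ) ^ (k + 2 * d) * (2 : ℝ) ^ (-α / 2) * (A.W (2 * d) n)⁻¹) :=
            mul_le_mul_of_nonneg_left (weight_datum_le hα hn) (norm_nonneg _)
        _ = _ := by ring
  have hsum1 : Summable fun n => A.W k n *
      ‖(if n = 0 then 0 else γ n * ((Real.sqrt (1 + sqNorm n) ^ (-α) : ℝ) : ℂ) : ℂ)‖ :=
    Summable.of_nonneg_of_le (fun n => mul_nonneg (W_pos n).le (norm_nonneg _)) hbound
      (hs.mul_left _)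
  refine ⟨mk _ hsum1, fun n => coef_mk _ hsum1 n, ?_⟩
  rw [norm_eq]
  have h3 : ∀ n, A.W k n * ‖coef (mk _ hsum1 : WA d k) n‖ ≤
      (2 : ℝ) ^ (k + 2 * d) * (2 : ℝ) ^ (-α / 2) * (‖γ n‖ * (A.W (2 * d) n)⁻¹) := by
    intro n
    rw [coef_mk]
    exact hbound n
  refine ((mk _ hsum1 : WA d k).summable.tsum_le_tsum h3 (hs.mul_left _)).trans ?_
  rw [tsum_mul_left]
  calc (2 : ℝ) ^ (k + 2 * d) * (2 : ℝ) ^ (-α / 2) * ∑' n, ‖γ n‖ * (A.W (2 * d) n)⁻¹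
      ≤ (2 : ℝ) ^ (k + 2 * d) * (2 : ℝ) ^ (-α / 2) * M := by gcongr
    _ = _ := by ring

/-- Both bounds with one constant and one threshold depending on `d`, `k` only. -/
theorem data_both (d k : ℕ) : ∃ C : ℝ, 1 ≤ C ∧ ∃ α₁ : ℝ, ∀ (γ : Lat d → ℂ) (M : ℝ),
    (Summable fun n => ‖γ n‖ * (A.W (2 * d) n)⁻¹) →
    ∑' n, ‖γ n‖ * (A.W (2 * d) n)⁻¹ ≤ M → ∀ α ≥ α₁,
    (∀ (N : ℕ) (B : Finset (Lat d)), (0 : Lat d) ∉ B →
      nL B (fun n => WW α N n * (1 + sqNorm n) ^ (k + d + 1))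
        (fun n => γ n * ((Real.sqrt (1 + sqNorm n) ^ (-α) : ℝ) : ℂ)) ≤
        C * M * (2 : ℝ) ^ (-α / 4)) ∧
    ∃ b : WA d k,
      (∀ n, coef b n = if n = 0 then 0 else γ n * ((Real.sqrt (1 + sqNorm n) ^ (-α) : ℝ) : ℂ)) ∧
      ‖b‖ ≤ C * M * (2 : ℝ) ^ (-α / 2) := by
  refine ⟨max (CD d k) ((2 : ℝ) ^ (k + 2 * d)), le_max_of_le_left (one_le_CD d k),
    max (AD d k) ((k + 2 * d : ℕ) : ℝ), fun γ M hs hM α hα => ?_⟩
  have hM0 : 0 ≤ M := (GG_nonneg γ).trans hM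
  refine ⟨fun N B hB => ?_, ?_⟩
  · refine (data_bd k hs hM ((le_max_left _ _).trans hα) N B hB).trans ?_
    have := le_max_left (CD d k) ((2 : ℝ) ^ (k + 2 * d))
    gcongr
  · obtain ⟨b, hb, hbn⟩ := datum_elem_bd k hs hM ((le_max_right _ _).trans hα)
    refine ⟨b, hb, hbn.trans ?_⟩
    have := le_max_right (CD d k) ((2 : ℝ) ^ (k + 2 * d))
    gcongr

end Vale.Agent.P139.BN
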