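import Mathlib

/-!
P139-N, R6 (helper940): the bootstrap argument and the numerical constants.
-/

set_option autoImplicit false

namespace Vale.Agent.P139.R2.H940

/-- bootstrap: an almost conserved quantity which is almost half the square of `X` keeps `X`
small -/
theorem boot {f f' : ℝ → ℂ} {X : ℝ → ℝ} {η T β : ℝ} (hη : 0 < η) (hβ0 : 0 ≤ β)
    (hc : ContinuousOn X (Set.Icc 0 T))
    (hd : ∀ t ∈ Set.Icc 0 T, HasDerivWithinAt f (f' t) (Set.Icc 0 T) t)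
    (hb : ∀ t ∈ Set.Icc 0 T, X t ≤ 2 * η → ‖f' t‖ ≤ β * η ^ 2)
    (he : ∀ t ∈ Set.Icc 0 T, X t ≤ 2 * η → ‖f t - ((X t ^ 2 / 2 : ℝ) : ℂ)‖ ≤ X t ^ 2 / 100)
    (hβ : β * T ≤ 1 / 10) (hX : ∀ t, 0 ≤ X t) (h0 : X 0 ≤ η) :
    ∀ t ∈ Set.Icc 0 T, X t ≤ 2 * η := by
  by_contra hcon
  push Not at hcon
  obtain ⟨t, ht, htX⟩ := hcon
  have hsub : Set.Icc 0 t ⊆ Set.Icc 0 T := Set.Icc_subset_Icc_right ht.2
  have hct : ContinuousOn X (Set.Icc 0 t) := hc.mono hsub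
  have hivt : ∀ u ∈ Set.Icc 0 T, 2 * η ≤ X u → ∃ v ∈ Set.Icc 0 u, X v = 2 * η := by
    intro u hu h2
    have h3 := intermediate_value_Icc hu.1 (hc.mono (Set.Icc_subset_Icc_right hu.2))
    exact h3 ⟨by linarith, h2⟩
  have hKc : IsCompact (Set.Icc 0 t ∩ X ⁻¹' {2 * η}) :=
    isCompact_Icc.of_isClosed_subset
      (hct.preimage_isClosed_of_isClosed isClosed_Icc isClosed_singleton) Set.inter_subset_left
  have hKn : (Set.Icc 0 t ∩ X ⁻¹' {2 * η}).Nonempty := by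
    obtain ⟨v, hv, hv2⟩ := hivt t ht htX.le
    exact ⟨v, hv, hv2⟩
  obtain ⟨t1, ht1, hmin⟩ := hKc.exists_isLeast hKn
  have hX1 : X t1 = 2 * η := ht1.2
  have h1T : t1 ∈ Set.Icc 0 T := hsub ht1.1
  have hlt : ∀ u ∈ Set.Ico 0 t1, X u ≤ 2 * η := by
    intro u hu
    by_contra hc2
    push Not at hc2
    have huT : u ∈ Set.Icc 0 T := ⟨hu.1, hu.2.le.trans h1T.2⟩
    obtain ⟨v, hv, hv2⟩ := hivt u huT hc2.le
    have h4 : v ∈ Set.Icc 0 t ∩ X ⁻¹' {2 * η} :=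
      ⟨⟨hv.1, hv.2.trans (hu.2.le.trans ht1.1.2)⟩, hv2⟩
    have h5 := hmin h4
    linarith [hv.2, hu.2]
  have h0T : (0 : ℝ) ∈ Set.Icc 0 T := ⟨le_rfl, h1T.1.trans h1T.2⟩
  have hmv := norm_image_sub_le_of_norm_deriv_le_segment' (f := f) (f' := f') (a := 0) (b := t1)
    (C := β * η ^ 2)
    (fun x hx => (hd x ⟨hx.1, hx.2.trans h1T.2⟩).mono (Set.Icc_subset_Icc_right h1T.2))
    (fun x hx => hb x ⟨hx.1, hx.2.le.trans h1T.2⟩ (hlt x hx)) t1 ⟨h1T.1, le_rfl⟩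
  have e1 := he t1 h1T hX1.le
  have e0 := he 0 h0T (by linarith)
  rw [hX1] at e1
  have n1 : (2 * η) ^ 2 / 2 - (2 * η) ^ 2 / 100 ≤ ‖f t1‖ := by
    have h6 : ‖(((2 * η) ^ 2 / 2 : ℝ) : ℂ)‖ ≤ ‖f t1‖ + ‖f t1 - (((2 * η) ^ 2 / 2 : ℝ) : ℂ)‖ := by
      have h7 : (((2 * η) ^ 2 / 2 : ℝ) : ℂ) = f t1 - (f t1 - (((2 * η) ^ 2 / 2 : ℝ) : ℂ)) := by ring
      calc ‖(((2 * η) ^ 2 / 2 : ℝ) : ℂ)‖ = ‖f t1 - (f t1 - (((2 * η) ^ 2 / 2 : ℝ) : ℂ))‖ := by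
            rw [← h7]
        _ ≤ _ := norm_sub_le _ _
    rw [Complex.norm_real, Real.norm_of_nonneg (by positivity)] at h6
    linarith
  have n0 : ‖f 0‖ ≤ η ^ 2 / 2 + η ^ 2 / 100 := by
    have h6 : ‖f 0‖ ≤ ‖(((X 0) ^ 2 / 2 : ℝ) : ℂ)‖ + ‖f 0 - (((X 0) ^ 2 / 2 : ℝ) : ℂ)‖ := by
      calc ‖f 0‖ = ‖(((X 0) ^ 2 / 2 : ℝ) : ℂ) + (f 0 - (((X 0) ^ 2 / 2 : ℝ) : ℂ))‖ := by
            congr 1
            ring
        _ ≤ _ := norm_add_le _ _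
    rw [Complex.norm_real, Real.norm_of_nonneg (by positivity)] at h6
    have h8 : X 0 ^ 2 ≤ η ^ 2 := pow_le_pow_left₀ (hX 0) h0 2
    linarith
  have h9 : ‖f t1‖ ≤ ‖f 0‖ + ‖f t1 - f 0‖ := by
    calc ‖f t1‖ = ‖f 0 + (f t1 - f 0)‖ := by
          congr 1
          ring
      _ ≤ _ := norm_add_le _ _
  have h10 : β * η ^ 2 * (t1 - 0) ≤ η ^ 2 / 10 := by
    have h11 : β * t1 ≤ 1 / 10 := (mul_le_mul_of_nonneg_left h1T.2 hβ0).trans hβ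
    have h12 : 0 ≤ η ^ 2 := by positivity
    nlinarith
  nlinarith [pow_pos hη 2]

/-- the constants of the evaluation bounds -/
theorem evc_le {j J e : ℕ} {S : ℝ} (hj : j ≤ J) (he : e ≤ J + 1) (hJ : 1 ≤ J) (hS : 1 ≤ S) :
    (4 * (j : ℝ) * S) ^ e ≤ (4 * J * S) ^ (J + 1) := by
  have h1 : (1 : ℝ) ≤ J := by exact_mod_cast hJ
  have h2 : (j : ℝ) ≤ J := by exact_mod_cast hj
  have h3 : 4 * (j : ℝ) * S ≤ 4 * J * S := by gcongr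
  have h4 : (1 : ℝ) ≤ 4 * J * S := by nlinarith
  exact (pow_le_pow_left₀ (by positivity) h3 e).trans (pow_le_pow_right₀ h4 he)

/-- the comparison of the constants -/
theorem const_le {J : ℕ} {A κ γ S : ℝ} (hJ : 4 ≤ J) (hA : 1 ≤ A) (hκ : 1 ≤ κ) (hγ : 0 < γ)
    (hγ1 : γ ≤ 1) (hS : 1 ≤ S) :
    480 * (J : ℝ) ^ 4 * κ * A * 2 ^ J * (4 * J * S) ^ (J + 1) ≤
      (2 * J * A * κ * S / γ) ^ ((J + 1) ^ 2) := by
  set b : ℝ := 2 * J * A * κ * S / γ with hb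
  have h1 : (4 : ℝ) ≤ J := by exact_mod_cast hJ
  have hAκ : 1 ≤ A * κ := one_le_mul_of_one_le_of_one_le hA hκ
  have hb1 : 2 * J * A * κ * S ≤ b := by
    rw [hb, le_div_iff₀ hγ]
    exact mul_le_of_le_one_right (by positivity) hγ1
  have hJS : 2 * (J : ℝ) * S ≤ 2 * J * A * κ * S := by
    have : 2 * (J : ℝ) * A * κ * S = 2 * (J : ℝ) * S * (A * κ) := by ring
    rw [this]
    exact le_mul_of_one_le_right (by positivity) hAκ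
  have hb8 : 8 ≤ b := by nlinarith
  have hJb : (J : ℝ) ≤ b := by nlinarith
  have hκA : κ * A ≤ b := by
    have h2 : κ * A ≤ 2 * J * A * κ * S := by
      have : 2 * (J : ℝ) * A * κ * S = κ * A * (2 * J * S) := by ring
      rw [this]
      exact le_mul_of_one_le_right (by positivity) (by nlinarith)
    exact h2.trans hb1
  have hG : 4 * (J : ℝ) * S ≤ b ^ 2 := by nlinarith
  have hb0 : 0 ≤ b := by linarith
  have e1 : 480 * (J : ℝ) ^ 4 * κ * A * 2 ^ J * (4 * J * S) ^ (J + 1) ≤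
      b ^ 3 * b ^ 4 * b * b ^ J * (b ^ 2) ^ (J + 1) := by
    have f1 : (480 : ℝ) ≤ b ^ 3 := by
      calc (480 : ℝ) ≤ 8 ^ 3 := by norm_num
        _ ≤ b ^ 3 := pow_le_pow_left₀ (by norm_num) hb8 3
    have f2 : (J : ℝ) ^ 4 ≤ b ^ 4 := pow_le_pow_left₀ (by positivity) hJb 4
    have f3 : (2 : ℝ) ^ J ≤ b ^ J := pow_le_pow_left₀ (by norm_num) (by linarith) J
    have f4 : (4 * (J : ℝ) * S) ^ (J + 1) ≤ (b ^ 2) ^ (J + 1) :=
      pow_le_pow_left₀ (by positivity) hG _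
    have f5 : 480 * (J : ℝ) ^ 4 * κ * A * 2 ^ J * (4 * J * S) ^ (J + 1) =
        480 * (J : ℝ) ^ 4 * (κ * A) * 2 ^ J * (4 * J * S) ^ (J + 1) := by ring
    rw [f5]
    gcongr
  refine e1.trans ?_
  have e2 : b ^ 3 * b ^ 4 * b * b ^ J * (b ^ 2) ^ (J + 1) = b ^ (3 * J + 10) := by
    rw [← pow_mul]
    ring
  rw [e2]
  refine pow_le_pow_right₀ (by linarith) ?_
  nlinarith

end Vale.Agent.P139.R2.H940
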