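import Vale.Agent.P139.R2.H940.Deriv
import Vale.Agent.P139.R2.H940.Boot

/-!
P139-N, R6 (helper940): the energy estimate `DynThm` from the normal form theorem, the evaluation
bounds and the algebra of the classes.
-/

set_option autoImplicit false

open MvPolynomial Finset
open scoped ComplexConjugate

namespace Vale.Agent.P139.R2.H940

open Vale.Agent.P139.BN Vale.Agent.P139.A

/-- what is used of the algebra of the classes (R3) -/
def AlgThm (d : ℕ) : Prop :=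
  ∀ (ι : Type) [Fintype ι] [DecidableEq ι] (J : ℕ) (κ γ : ℝ) (R : ℕ) (θ S : ℝ) (mo : ι → Lat d)
    (lev : ι → ℕ) (fr W pw : ι → ℝ), 1 ≤ κ → Modes ι d J κ γ R θ S mo lev fr W pw →
    Cls mo (DW W pw) 2 1 (quad fun n => (W n * pw n) ^ 2) ∧
    ∀ (p q : ℕ) (A F : ℝ) (P Q : Pl ι), 1 ≤ p → 1 ≤ q → p + q ≤ J → 0 ≤ A → 0 ≤ F →
      Cls mo D0 (p + 1) A P → Cls mo (DW W pw) (q + 1) F Q →
      Cls mo (DW W pw) (p + q) (4 * (p + 1) * (q + 1) * κ * A * F) (br P Q)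

variable {ι : Type} [Fintype ι] [DecidableEq ι] {d : ℕ}

omit [DecidableEq ι] in
theorem nw_nonneg (w : ι → ℝ) (y : ι × Bool → ℂ) : 0 ≤ nw w y := Real.sqrt_nonneg _

omit [DecidableEq ι] in
theorem nw_sq (w : ι → ℝ) (y : ι × Bool → ℂ) : nw w y ^ 2 = ∑ v : ι × Bool, (w v.1 * ‖y v‖) ^ 2 :=
  Real.sq_sqrt (Finset.sum_nonneg fun _ _ => sq_nonneg _)

/-- the quadratic part of the energy -/
theorem eval_quad (w : ι → ℝ) (z : ι → ℂ) :
    eval (pt z) (quad fun n => w n ^ 2) = ((nw w (pt z) ^ 2 / 2 : ℝ) : ℂ) := by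
  have e1 : nw w (pt z) ^ 2 = 2 * ∑ n : ι, (w n * ‖z n‖) ^ 2 := by
    rw [nw_sq, Fintype.sum_prod_type, Finset.mul_sum]
    refine Finset.sum_congr rfl fun n _ => ?_
    rw [Fintype.sum_bool, pt_true, pt_false, RCLike.norm_conj]
    ring
  have e2 : nw w (pt z) ^ 2 / 2 = ∑ n : ι, (w n * ‖z n‖) ^ 2 := by rw [e1]; ring
  rw [e2]
  unfold quad
  rw [map_sum, Complex.ofReal_sum]
  refine Finset.sum_congr rfl fun n _ => ?_
  rw [map_mul, map_mul, eval_C, eval_X, eval_X, pt_true, pt_false, Complex.mul_conj,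
    Complex.normSq_eq_norm_sq]
  push_cast
  ring

omit [DecidableEq ι] in
theorem cont_nw (w : ι → ℝ) {z : ℝ → ι → ℂ} {s : Set ℝ}
    (h : ∀ n, ContinuousOn (fun t => z t n) s) : ContinuousOn (fun t => nw w (pt (z t))) s := by
  unfold nw
  refine ContinuousOn.sqrt (continuousOn_finsetSum _ fun v _ => ?_)
  refine ContinuousOn.pow (ContinuousOn.mul continuousOn_const ?_) 2
  obtain ⟨n, b⟩ := v
  cases b with
  | true =>
    have e1 : (fun t => ‖pt (z t) (n, true)‖) = fun t => ‖z t n‖ :=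
      funext fun u => by rw [pt_true]
    rw [e1]
    exact (h n).norm
  | false =>
    have e1 : (fun t => ‖pt (z t) (n, false)‖) = fun t => ‖z t n‖ :=
      funext fun u => by rw [pt_false, RCLike.norm_conj]
    rw [e1]
    exact (h n).norm


/-- the data of the energy estimate with abstract constants -/
structure Ctx (N J L : ℕ) (A κ θ η G K C' : ℝ) (mo : ι → Lat d) (W pw : ι → ℝ)
    (E H : ℕ → Pl ι) : Prop where
  hNL : N + L + 4 ≤ J
  hA : 1 ≤ A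
  hκ : 1 ≤ κ
  hθ0 : 0 ≤ θ
  hη : 0 < η
  hη1 : 2 * η ≤ 1
  hG : 1 ≤ G
  hK : 1 ≤ K
  hC : 0 ≤ C'
  hCK : C' ≤ K
  hθ : θ ≤ η ^ N
  hev : ∀ (j : ℕ) (F : ℝ) (P : Pl ι), 2 ≤ j → j ≤ J → 0 ≤ F → Cls mo (DW W pw) j F P →
      (∀ y : ι × Bool → ℂ, ‖eval y P‖ ≤ G * F * nw (fun n => W n * pw n) y ^ j) ∧
      (∀ y r : ι × Bool → ℂ, ‖∑ v, eval y (pderiv v P) * r v‖ ≤
        G * F * nw (fun n => W n * pw n) y ^ (j - 1) * nw (fun n => W n * pw n) r)
  hE : ∀ i, i ≤ N → Cls mo (DW W pw) (i + 2) K (E i)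
  hEH : ∀ r, r ≤ N → Cls mo (DW W pw) (r + 2) (C' * θ) (sbr E H r)
  hbr : ∀ i j, i ≤ N → j ≤ L → 1 ≤ j → Cls mo (DW W pw) (j + 1 + (i + 1))
    (4 * ((j + 1 : ℕ) + 1) * ((i + 1 : ℕ) + 1) * κ * A * K) (br (H j) (E i))

namespace Ctx

variable {N J L : ℕ} {A κ θ η G K C' : ℝ} {mo : ι → Lat d} {W pw : ι → ℝ} {E H : ℕ → Pl ι}

theorem pow_le (h : Ctx N J L A κ θ η G K C' mo W pw E H) {x : ℝ} (hx0 : 0 ≤ x)
    (hx : x ≤ 2 * η) : x ^ (N + 3) ≤ 4 * η ^ 2 * (η ^ N * 2 ^ J) := by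
  have hη := h.hη
  have h1 : x ^ (N + 3) ≤ (2 * η) ^ (N + 3) := pow_le_pow_left₀ hx0 hx _
  have h2 : (2 * η) ^ (N + 3) = 4 * η ^ 2 * (η ^ N * (2 ^ N * (2 * η))) := by ring
  rw [h2] at h1
  refine h1.trans ?_
  have h3 : (2 : ℝ) ^ N * (2 * η) ≤ 2 ^ J := by
    have h4 : (2 : ℝ) ^ N ≤ 2 ^ J := pow_le_pow_right₀ (by norm_num) (by have := h.hNL; omega)
    calc (2 : ℝ) ^ N * (2 * η) ≤ 2 ^ N * 1 := by
          have := h.hη1
          gcongr
      _ = 2 ^ N := mul_one _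
      _ ≤ 2 ^ J := h4
  gcongr

theorem N_le (h : Ctx N J L A κ θ η G K C' mo W pw E H) : ((N : ℝ) + 1) ≤ J := by
  have : N + 1 ≤ J := by have := h.hNL; omega
  exact_mod_cast this

theorem partA (h : Ctx N J L A κ θ η G K C' mo W pw E H) {y : ι × Bool → ℂ}
    (hX : nw (fun n => W n * pw n) y ≤ 2 * η) :
    ‖eval y (∑ r ∈ range (N + 1), sbr E H r)‖ ≤ J * G * K * η ^ N * (4 * η ^ 2) := by
  set x : ℝ := nw (fun n => W n * pw n) y with hx
  have hx0 : 0 ≤ x := nw_nonneg _ _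
  have hη := h.hη
  have hG := h.hG
  have hK := h.hK
  have hx1 : x ≤ 1 := hX.trans h.hη1
  have hx2 : x ^ 2 ≤ 4 * η ^ 2 := by
    have h1 := pow_le_pow_left₀ hx0 hX 2
    calc x ^ 2 ≤ (2 * η) ^ 2 := h1
      _ = 4 * η ^ 2 := by ring
  have h0 := h.hNL
  have h6 : 0 ≤ C' * θ := mul_nonneg h.hC h.hθ0
  rw [map_sum]
  have h1 : ∀ r ∈ range (N + 1), ‖eval y (sbr E H r)‖ ≤ G * K * η ^ N * (4 * η ^ 2) := by
    intro r hr
    rw [Finset.mem_range] at hr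
    have h2 := (h.hev (r + 2) (C' * θ) _ (by omega) (by omega) h6 (h.hEH r (by omega))).1 y
    have h3 : x ^ (r + 2) ≤ 4 * η ^ 2 := (pow_le_pow_of_le_one hx0 hx1 (by omega)).trans hx2
    have h4 : C' * θ ≤ K * η ^ N := mul_le_mul h.hCK h.hθ h.hθ0 (by linarith)
    calc ‖eval y (sbr E H r)‖ ≤ G * (C' * θ) * x ^ (r + 2) := h2
      _ ≤ G * (K * η ^ N) * (4 * η ^ 2) := by
          have h5 : 0 ≤ x ^ (r + 2) := pow_nonneg hx0 _
          gcongr
      _ = G * K * η ^ N * (4 * η ^ 2) := by ring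
  refine (norm_sum_le_of_le _ h1).trans ?_
  rw [Finset.sum_const, Finset.card_range, nsmul_eq_mul]
  have h7 : 0 ≤ G * K * η ^ N * (4 * η ^ 2) := by positivity
  calc ((N + 1 : ℕ) : ℝ) * (G * K * η ^ N * (4 * η ^ 2)) ≤
        J * (G * K * η ^ N * (4 * η ^ 2)) := by
          push_cast
          exact mul_le_mul_of_nonneg_right h.N_le h7
    _ = _ := by ring

theorem partB1 (h : Ctx N J L A κ θ η G K C' mo W pw E H) {y : ι × Bool → ℂ}
    (hX : nw (fun n => W n * pw n) y ≤ 2 * η) {i j : ℕ} (hi : i ≤ N) (hj : j ≤ L)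
    (hij : N < i + j) :
    ‖eval y (br (E i) (H j))‖ ≤
      4 * (J : ℝ) ^ 2 * κ * A * K * G * (4 * η ^ 2 * (η ^ N * 2 ^ J)) := by
  set x : ℝ := nw (fun n => W n * pw n) y with hx
  have hx0 : 0 ≤ x := nw_nonneg _ _
  have hη := h.hη
  have hG := h.hG
  have hK := h.hK
  have hA := h.hA
  have hκ := h.hκ
  have h0 := h.hNL
  have hx1 : x ≤ 1 := hX.trans h.hη1
  have h2 := h.hbr i j hi hj (by omega)
  have h3 := (h.hev _ _ _ (by omega) (by omega) (by positivity) h2).1 y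
  have h4 : ‖eval y (br (E i) (H j))‖ = ‖eval y (br (H j) (E i))‖ := by
    rw [br_swap (E i) (H j), map_neg, norm_neg]
  rw [h4]
  have h5 : x ^ (j + 1 + (i + 1)) ≤ 4 * η ^ 2 * (η ^ N * 2 ^ J) :=
    (pow_le_pow_of_le_one hx0 hx1 (by omega)).trans (h.pow_le hx0 hX)
  have h6 : (((j + 1 : ℕ) : ℝ) + 1) * (((i + 1 : ℕ) : ℝ) + 1) ≤ (J : ℝ) ^ 2 := by
    have h7 : (((j + 1 : ℕ) : ℝ) + 1) ≤ J := by
      have : j + 1 + 1 ≤ J := by omega
      exact_mod_cast this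
    have h8 : (((i + 1 : ℕ) : ℝ) + 1) ≤ J := by
      have : i + 1 + 1 ≤ J := by omega
      exact_mod_cast this
    rw [pow_two]
    exact mul_le_mul h7 h8 (by positivity) (by positivity)
  calc ‖eval y (br (H j) (E i))‖ ≤
        G * (4 * (((j + 1 : ℕ) : ℝ) + 1) * (((i + 1 : ℕ) : ℝ) + 1) * κ * A * K) *
          x ^ (j + 1 + (i + 1)) := h3
    _ = G * (4 * ((((j + 1 : ℕ) : ℝ) + 1) * (((i + 1 : ℕ) : ℝ) + 1)) * κ * A * K) *
          x ^ (j + 1 + (i + 1)) := by ring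
    _ ≤ G * (4 * (J : ℝ) ^ 2 * κ * A * K) * (4 * η ^ 2 * (η ^ N * 2 ^ J)) := by
        have h9 : 0 ≤ x ^ (j + 1 + (i + 1)) := pow_nonneg hx0 _
        gcongr
    _ = _ := by ring

theorem partB (h : Ctx N J L A κ θ η G K C' mo W pw E H) {y : ι × Bool → ℂ}
    (hX : nw (fun n => W n * pw n) y ≤ 2 * η) :
    ‖eval y (∑ p ∈ (range (N + 1) ×ˢ range (L + 1)).filter
        (fun p => N < p.1 + p.2), br (E p.1) (H p.2))‖ ≤
        4 * (J : ℝ) ^ 4 * κ * A * K * G * (4 * η ^ 2 * (η ^ N * 2 ^ J)) := by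
  have hη := h.hη
  have hG := h.hG
  have hK := h.hK
  have hA := h.hA
  have hκ := h.hκ
  have h0 := h.hNL
  rw [map_sum]
  have h1 : ∀ p ∈ (range (N + 1) ×ˢ range (L + 1)).filter (fun p => N < p.1 + p.2),
      ‖eval y (br (E p.1) (H p.2))‖ ≤
        4 * (J : ℝ) ^ 2 * κ * A * K * G * (4 * η ^ 2 * (η ^ N * 2 ^ J)) := by
    rintro ⟨i, j⟩ hp
    simp only [Finset.mem_filter, Finset.mem_product, Finset.mem_range] at hp
    exact h.partB1 hX (by omega) (by omega) hp.2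
  refine (norm_sum_le_of_le _ h1).trans ?_
  rw [Finset.sum_const, nsmul_eq_mul]
  have h10 : (((range (N + 1) ×ˢ range (L + 1)).filter
      (fun p => N < p.1 + p.2)).card : ℝ) ≤ (J : ℝ) ^ 2 := by
    have h11 : ((range (N + 1) ×ˢ range (L + 1)).filter
        (fun p => N < p.1 + p.2)).card ≤ (N + 1) * (L + 1) := by
      refine (Finset.card_filter_le _ _).trans (le_of_eq ?_)
      rw [Finset.card_product, Finset.card_range, Finset.card_range]
    have h12 : (N + 1) * (L + 1) ≤ J ^ 2 := by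
      rw [pow_two]
      exact Nat.mul_le_mul (by omega) (by omega)
    exact_mod_cast h11.trans h12
  calc _ ≤ (J : ℝ) ^ 2 * (4 * (J : ℝ) ^ 2 * κ * A * K * G * (4 * η ^ 2 * (η ^ N * 2 ^ J))) :=
        mul_le_mul_of_nonneg_right h10 (by positivity)
    _ = _ := by ring

theorem partC (h : Ctx N J L A κ θ η G K C' mo W pw E H) {y q : ι × Bool → ℂ}
    (hX : nw (fun n => W n * pw n) y ≤ 2 * η)
    (hq : nw (fun n => W n * pw n) q ≤ A * nw (fun n => W n * pw n) y ^ (N + 2)) :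
    ‖∑ v, eval y (pderiv v (∑ i ∈ range (N + 1), E i)) * q v‖ ≤
        J * G * K * A * (4 * η ^ 2 * (η ^ N * 2 ^ J)) := by
  set x : ℝ := nw (fun n => W n * pw n) y with hx
  have hx0 : 0 ≤ x := nw_nonneg _ _
  have hη := h.hη
  have hG := h.hG
  have hK := h.hK
  have hA := h.hA
  have h0 := h.hNL
  have hx1 : x ≤ 1 := hX.trans h.hη1
  have h1 : ∑ v, eval y (pderiv v (∑ i ∈ range (N + 1), E i)) * q v =
      ∑ i ∈ range (N + 1), ∑ v, eval y (pderiv v (E i)) * q v := by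
    rw [Finset.sum_comm]
    refine Finset.sum_congr rfl fun v _ => ?_
    rw [map_sum, map_sum, Finset.sum_mul]
  rw [h1]
  have h2 : ∀ i ∈ range (N + 1), ‖∑ v, eval y (pderiv v (E i)) * q v‖ ≤
      G * K * A * (4 * η ^ 2 * (η ^ N * 2 ^ J)) := by
    intro i hi
    rw [Finset.mem_range] at hi
    have h3 := (h.hev (i + 2) K _ (by omega) (by omega) (by linarith) (h.hE i (by omega))).2 y q
    have h4 : x ^ (i + 2 - 1) ≤ x := by
      calc x ^ (i + 2 - 1) ≤ x ^ 1 := pow_le_pow_of_le_one hx0 hx1 (by omega)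
        _ = x := pow_one _
    calc ‖∑ v, eval y (pderiv v (E i)) * q v‖ ≤
          G * K * x ^ (i + 2 - 1) * nw (fun n => W n * pw n) q := h3
      _ ≤ G * K * x * (A * x ^ (N + 2)) := by
          have h5 := nw_nonneg (fun n => W n * pw n) q
          have h6 : 0 ≤ x ^ (i + 2 - 1) := pow_nonneg hx0 _
          gcongr
      _ = G * K * A * x ^ (N + 3) := by ring
      _ ≤ _ := by
          have h7 := h.pow_le hx0 hX
          gcongr
  refine (norm_sum_le_of_le _ h2).trans ?_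
  rw [Finset.sum_const, Finset.card_range, nsmul_eq_mul]
  have h7 : 0 ≤ G * K * A * (4 * η ^ 2 * (η ^ N * 2 ^ J)) := by positivity
  calc ((N + 1 : ℕ) : ℝ) * (G * K * A * (4 * η ^ 2 * (η ^ N * 2 ^ J))) ≤
        J * (G * K * A * (4 * η ^ 2 * (η ^ N * 2 ^ J))) := by
          push_cast
          exact mul_le_mul_of_nonneg_right h.N_le h7
    _ = _ := by ring

/-- the bound of the derivative of the energy -/
theorem bound (h : Ctx N J L A κ θ η G K C' mo W pw E H) (hHL : ∀ r, L < r → H r = 0)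
    {z ρ : ι → ℂ}
    (hreal : ∀ n, conj (eval (pt z) (pderiv (n, false) (∑ r ∈ range (L + 1), H r))) =
        eval (pt z) (pderiv (n, true) (∑ r ∈ range (L + 1), H r)))
    (hX : nw (fun n => W n * pw n) (pt z) ≤ 2 * η)
    (hq : nw (fun n => W n * pw n) (pt ρ) ≤ A * nw (fun n => W n * pw n) (pt z) ^ (N + 2)) :
    ‖∑ v, eval (pt z) (pderiv v (∑ i ∈ range (N + 1), E i)) *
      pt (fun n => -Complex.I * eval (pt z) (pderiv (n, false) (∑ r ∈ range (L + 1), H r)) + ρ n)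
        v‖ ≤ 4 * (12 * (J : ℝ) ^ 4 * κ * A * 2 ^ J * G * K) * η ^ N * η ^ 2 := by
  have hη := h.hη
  have hG := h.hG
  have hK := h.hK
  have hA := h.hA
  have hκ := h.hκ
  have e1 := flow_sum (∑ i ∈ range (N + 1), E i) (∑ r ∈ range (L + 1), H r) z ρ hreal
  rw [e1, br_split N L E H hHL, map_add]
  have e3 : ‖-Complex.I * (eval (pt z) (∑ r ∈ range (N + 1), sbr E H r) +
        eval (pt z) (∑ p ∈ (range (N + 1) ×ˢ range (L + 1)).filter
          (fun p => N < p.1 + p.2), br (E p.1) (H p.2)))‖ ≤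
      J * G * K * η ^ N * (4 * η ^ 2) +
        4 * (J : ℝ) ^ 4 * κ * A * K * G * (4 * η ^ 2 * (η ^ N * 2 ^ J)) := by
    rw [norm_mul, norm_neg, Complex.norm_I, one_mul]
    exact (norm_add_le _ _).trans (add_le_add (h.partA hX) (h.partB hX))
  refine ((norm_add_le _ _).trans (add_le_add e3 (h.partC hX hq))).trans ?_
  have hJ4 : (4 : ℝ) ≤ J := by
    have : 4 ≤ J := by have := h.hNL; omega
    exact_mod_cast this
  have hJ41 : (1 : ℝ) ≤ J := by linarith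
  have g2J : (1 : ℝ) ≤ 2 ^ J := one_le_pow₀ (by norm_num)
  have h2 : (1 : ℝ) ≤ 4 * (J : ℝ) ^ 3 := by
    have := one_le_pow₀ hJ41 (n := 3)
    linarith
  have gA : J * G * K * η ^ N * (4 * η ^ 2) ≤
      4 * (J : ℝ) ^ 4 * κ * A * K * G * (4 * η ^ 2 * (η ^ N * 2 ^ J)) := by
    have h1 : 1 ≤ 4 * (J : ℝ) ^ 3 * κ * A * 2 ^ J :=
      one_le_mul_of_one_le_of_one_le
        (one_le_mul_of_one_le_of_one_le (one_le_mul_of_one_le_of_one_le h2 hκ) hA) g2J
    have h3 : 4 * (J : ℝ) ^ 4 * κ * A * K * G * (4 * η ^ 2 * (η ^ N * 2 ^ J)) =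
        J * G * K * η ^ N * (4 * η ^ 2) * (4 * (J : ℝ) ^ 3 * κ * A * 2 ^ J) := by ring
    rw [h3]
    exact le_mul_of_one_le_right (by positivity) h1
  have gC : J * G * K * A * (4 * η ^ 2 * (η ^ N * 2 ^ J)) ≤
      4 * (J : ℝ) ^ 4 * κ * A * K * G * (4 * η ^ 2 * (η ^ N * 2 ^ J)) := by
    have h1 : 1 ≤ 4 * (J : ℝ) ^ 3 * κ := one_le_mul_of_one_le_of_one_le h2 hκ
    have h3 : 4 * (J : ℝ) ^ 4 * κ * A * K * G * (4 * η ^ 2 * (η ^ N * 2 ^ J)) =
        J * G * K * A * (4 * η ^ 2 * (η ^ N * 2 ^ J)) * (4 * (J : ℝ) ^ 3 * κ) := by ring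
    rw [h3]
    exact le_mul_of_one_le_right (by positivity) h1
  calc _ ≤ 4 * (J : ℝ) ^ 4 * κ * A * K * G * (4 * η ^ 2 * (η ^ N * 2 ^ J)) +
        4 * (J : ℝ) ^ 4 * κ * A * K * G * (4 * η ^ 2 * (η ^ N * 2 ^ J)) +
        4 * (J : ℝ) ^ 4 * κ * A * K * G * (4 * η ^ 2 * (η ^ N * 2 ^ J)) :=
        add_le_add (add_le_add gA le_rfl) gC
    _ = _ := by ring

/-- the energy is almost half the square of the norm -/
theorem close (h : Ctx N J L A κ θ η G K C' mo W pw E H)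
    (hE0 : E 0 = quad fun n => (W n * pw n) ^ 2) (hs : J * G * K * (2 * η) ≤ 1 / 100)
    {z : ι → ℂ} (hX : nw (fun n => W n * pw n) (pt z) ≤ 2 * η) :
    ‖eval (pt z) (∑ i ∈ range (N + 1), E i) -
      ((nw (fun n => W n * pw n) (pt z) ^ 2 / 2 : ℝ) : ℂ)‖ ≤
      nw (fun n => W n * pw n) (pt z) ^ 2 / 100 := by
  have e1 : eval (pt z) (∑ i ∈ range (N + 1), E i) -
      ((nw (fun n => W n * pw n) (pt z) ^ 2 / 2 : ℝ) : ℂ) =
      ∑ i ∈ range N, eval (pt z) (E (i + 1)) := by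
    rw [Finset.sum_range_succ', map_add, map_sum, hE0, eval_quad (fun n => W n * pw n) z]
    ring
  rw [e1]
  set x : ℝ := nw (fun n => W n * pw n) (pt z) with hx
  have hx0 : 0 ≤ x := nw_nonneg _ _
  have hη := h.hη
  have hG := h.hG
  have hK := h.hK
  have h0 := h.hNL
  have hx1 : x ≤ 1 := hX.trans h.hη1
  have h1 : ∀ i ∈ range N, ‖eval (pt z) (E (i + 1))‖ ≤ G * K * (2 * η * x ^ 2) := by
    intro i hi
    rw [Finset.mem_range] at hi
    have h3 := (h.hev (i + 1 + 2) K _ (by omega) (by omega) (by linarith)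
      (h.hE (i + 1) (by omega))).1 (pt z)
    have h4 : x ^ (i + 1 + 2) ≤ 2 * η * x ^ 2 := by
      calc x ^ (i + 1 + 2) ≤ x ^ 3 := pow_le_pow_of_le_one hx0 hx1 (by omega)
        _ = x * x ^ 2 := by ring
        _ ≤ 2 * η * x ^ 2 := by gcongr
    exact h3.trans (by gcongr)
  refine (norm_sum_le_of_le _ h1).trans ?_
  rw [Finset.sum_const, Finset.card_range, nsmul_eq_mul]
  have h5 : (N : ℝ) ≤ J := by linarith [h.N_le]
  calc (N : ℝ) * (G * K * (2 * η * x ^ 2)) ≤ J * (G * K * (2 * η * x ^ 2)) :=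
        mul_le_mul_of_nonneg_right h5 (by positivity)
    _ = J * G * K * (2 * η) * x ^ 2 := by ring
    _ ≤ 1 / 100 * x ^ 2 := mul_le_mul_of_nonneg_right hs (by positivity)
    _ = x ^ 2 / 100 := by ring

end Ctx

omit [DecidableEq ι] in
theorem cls_mono {mo : ι → Lat d} {W pw : ι → ℝ} (hW : ∀ n, 1 ≤ W n) (hpw : ∀ n, 1 ≤ pw n)
    {j : ℕ} {F F' : ℝ} {P : Pl ι} (hF : F ≤ F') (h : Cls mo (DW W pw) j F P) :
    Cls mo (DW W pw) j F' P := by
  obtain ⟨c, h1, h2, h3⟩ := h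
  refine ⟨c, fun I => (h1 I).trans (mul_le_mul_of_nonneg_right hF ?_), h2, h3⟩
  unfold DW
  refine mul_nonneg (Finset.prod_nonneg fun l _ => ?_)
    (Finset.sum_nonneg fun l _ => Finset.sum_nonneg fun l' _ => mul_nonneg ?_ ?_)
  · linarith [hW (I l).1]
  · linarith [hpw (I l).1]
  · linarith [hpw (I l').1]

/-- the constants -/
theorem consts (a' : ℕ) {J : ℕ} {A κ γ S : ℝ} (hJ : 4 ≤ J) (hA : 1 ≤ A) (hκ : 1 ≤ κ) (hγ : 0 < γ)
    (hγ1 : γ ≤ 1) (hS : 1 ≤ S) :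
    ∃ K : ℝ, 1 ≤ K ∧ 0 ≤ Cst a' J A κ 1 γ ∧ Cst a' J A κ 1 γ ≤ K ∧
      1 ≤ (4 * (J : ℝ) * S) ^ (J + 1) ∧
      40 * (12 * (J : ℝ) ^ 4 * κ * A * 2 ^ J * (4 * J * S) ^ (J + 1) * K) ≤
        Cst (a' + 1) J A κ S γ ∧
      480 * (J * (4 * J * S) ^ (J + 1) * K) ≤ Cst (a' + 1) J A κ S γ ∧
      2 ≤ Cst (a' + 1) J A κ S γ := by
  have hJr : (4 : ℝ) ≤ J := by exact_mod_cast hJ
  set b : ℝ := 2 * J * A * κ * S / γ with hb
  have hb1 : 1 ≤ b := by
    rw [hb, le_div_iff₀ hγ, one_mul]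
    have h1 : 1 ≤ 2 * (J : ℝ) * A * κ * S := by
      have h2 : (1 : ℝ) ≤ 2 * J := by linarith
      have h3 := one_le_mul_of_one_le_of_one_le h2 hA
      have h4 := one_le_mul_of_one_le_of_one_le h3 hκ
      exact one_le_mul_of_one_le_of_one_le h4 hS
    linarith
  set G : ℝ := (4 * J * S) ^ (J + 1) with hG
  have hG1 : 1 ≤ G := one_le_pow₀ (by nlinarith)
  set K : ℝ := b ^ (a' * (J + 1) ^ 2) with hK
  have hK1 : 1 ≤ K := one_le_pow₀ hb1
  have hCsE : Cst (a' + 1) J A κ S γ = K * b ^ ((J + 1) ^ 2) := by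
    rw [hK]
    unfold Cst
    rw [← hb, ← pow_add]
    congr 1
    ring
  have hcle := const_le hJ hA hκ hγ hγ1 hS
  rw [← hb, ← hG] at hcle
  have hBC : 40 * (12 * (J : ℝ) ^ 4 * κ * A * 2 ^ J * G * K) ≤ Cst (a' + 1) J A κ S γ := by
    have h1 := mul_le_mul_of_nonneg_left hcle (by linarith : 0 ≤ K)
    rw [← hCsE] at h1
    refine le_trans (le_of_eq ?_) h1
    ring
  have hJGK : 480 * (J * G * K) ≤ Cst (a' + 1) J A κ S γ := by
    refine le_trans ?_ hBC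
    have h1 : 1 ≤ (J : ℝ) ^ 3 * κ * A * 2 ^ J := by
      have h2 : (1 : ℝ) ≤ (J : ℝ) ^ 3 := one_le_pow₀ (by linarith)
      have h3 : (1 : ℝ) ≤ 2 ^ J := one_le_pow₀ (by norm_num)
      exact one_le_mul_of_one_le_of_one_le
        (one_le_mul_of_one_le_of_one_le (one_le_mul_of_one_le_of_one_le h2 hκ) hA) h3
    have h4 : 40 * (12 * (J : ℝ) ^ 4 * κ * A * 2 ^ J * G * K) =
        480 * (J * G * K) * ((J : ℝ) ^ 3 * κ * A * 2 ^ J) := by ring
    rw [h4]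
    exact le_mul_of_one_le_right (by positivity) h1
  refine ⟨K, hK1, ?_, ?_, hG1, hBC, hJGK, ?_⟩
  · unfold Cst
    positivity
  · rw [hK, hb]
    unfold Cst
    refine pow_le_pow_left₀ (by positivity) ?_ _
    rw [mul_one]
    refine div_le_div_of_nonneg_right ?_ hγ.le
    exact le_mul_of_one_le_right (by positivity) hS
  · have h1 : 1 ≤ J * G * K := by
      have h1 : (1 : ℝ) ≤ J := by linarith
      exact one_le_mul_of_one_le_of_one_le (one_le_mul_of_one_le_of_one_le h1 hG1) hK1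
    linarith

/-- **Row R6.** -/
theorem dynThm {d : ℕ} (hNF : NFThm d) (hEv : EvThm d) (hAl : AlgThm d) : DynThm d := by
  obtain ⟨a', hNF⟩ := hNF
  refine ⟨a' + 1, ?_⟩
  intro N J L hJ A κ γ S hA hκ hγ hγ1 hS ι _ _ R θ mo lev fr W pw hM H hH0 hH hHL hreal η T hη hT
    hCη hθ hCT z ρ hz hρ hz0
  obtain ⟨hqc, hbr⟩ := hAl ι J κ γ R θ S mo lev fr W pw hκ hM
  obtain ⟨E, hE0, hE, hEH⟩ := hNF N J (by omega) A κ γ hA hκ hγ hγ1 ι R θ S mo lev fr W pw hM H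
    hH0 hH
  obtain ⟨K, hK1, hC0, hCK, hG1, hBC, hJGK, hC2⟩ :=
    consts a' (by omega : 4 ≤ J) hA hκ hγ hγ1 hS
  have hη1 : 2 * η ≤ 1 := (mul_le_mul_of_nonneg_right hC2 hη.le).trans hCη
  have hEc : ∀ i, i ≤ N → Cls mo (DW W pw) (i + 2) K (E i) := by
    intro i hi
    rcases Nat.eq_zero_or_pos i with h | h
    · subst h
      rw [hE0]
      exact cls_mono hM.one_le_W hM.one_le_pw hK1 hqc
    · exact cls_mono hM.one_le_W hM.one_le_pw hCK (hE i h hi)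
  have ctx : Ctx N J L A κ θ η ((4 * J * S) ^ (J + 1)) K (Cst a' J A κ 1 γ) mo W pw E H := by
    refine ⟨hJ, hA, hκ, hM.θ_pos.le, hη, hη1, hG1, hK1, hC0, hCK, hθ, ?_, hEc, hEH, ?_⟩
    · intro j F P hj hjJ hF hP
      obtain ⟨h1, h2⟩ := hEv j S hj hS ι mo W pw hM.inj hM.one_le_W hM.one_le_pw hM.summ F P hF hP
      have g1 : (4 * (j : ℝ) * S) ^ j ≤ (4 * J * S) ^ (J + 1) :=
        evc_le hjJ (by omega) (by omega) hS
      have g2 : (4 * (j : ℝ) * S) ^ (j + 1) ≤ (4 * J * S) ^ (J + 1) :=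
        evc_le hjJ (by omega) (by omega) hS
      refine ⟨fun y => (h1 y).trans ?_, fun y r => (h2 y r).trans ?_⟩
      · have h3 := nw_nonneg (fun n => W n * pw n) y
        gcongr
      · have h3 := nw_nonneg (fun n => W n * pw n) y
        have h4 := nw_nonneg (fun n => W n * pw n) r
        gcongr
    · intro i j hi hj hj1
      exact hbr (j + 1) (i + 1) A K (H j) (E i) (by omega) (by omega) (by omega) (by linarith)
        (by linarith) (hH j hj1) (hEc i hi)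
  have hβT : 4 * (12 * (J : ℝ) ^ 4 * κ * A * 2 ^ J * (4 * J * S) ^ (J + 1) * K) * η ^ N * T ≤
      1 / 10 := by
    have h0 : 0 ≤ η ^ N * T := by positivity
    have h1 := mul_le_mul_of_nonneg_right hBC h0
    have h2 : Cst (a' + 1) J A κ S γ * (η ^ N * T) = T * (Cst (a' + 1) J A κ S γ * η ^ N) := by
      ring
    rw [h2] at h1
    linarith
  have hs : J * (4 * J * S) ^ (J + 1) * K * (2 * η) ≤ 1 / 100 := by
    have h8 := (mul_le_mul_of_nonneg_right hJGK hη.le).trans hCη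
    linarith
  have hβ0 : 0 ≤ 4 * (12 * (J : ℝ) ^ 4 * κ * A * 2 ^ J * (4 * J * S) ^ (J + 1) * K) * η ^ N := by
    positivity
  refine boot (X := fun t => nw (fun n => W n * pw n) (pt (z t))) hη hβ0
    (cont_nw _ fun n t ht => (hz t ht n).continuousWithinAt)
    (fun t ht => deriv_eval (∑ i ∈ range (N + 1), E i) fun v => deriv_pt (fun n => hz t ht n) v)
    (fun t ht hXt => ctx.bound hHL (hreal (z t)) hXt (hρ t ht (hXt.trans hη1)))
    (fun t ht hXt => ctx.close hE0 hs hXt) hβT (fun t => nw_nonneg _ _) hz0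

end Vale.Agent.P139.R2.H940
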