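import Vale.Agent.P139.R2.H940.Data

/-!
# P139, stage 2, S4 (B): the data bound in the form of the deterministic step
-/

set_option autoImplicit false

open Finset

namespace Vale.Agent.P139.BN

open Vale.Agent.P139.A Vale.Agent.P139.A.WA

/-- The data bound; the constant and the threshold depend on `d`, `k` only. -/
theorem data_bound (d k : ℕ) : ∃ C : ℝ, 1 ≤ C ∧ ∃ α₁ : ℝ, ∀ α ≥ α₁, ∀ N : ℕ, (N : ℝ) ^ 9 ≤ α →
    ∀ γ : Lat d → ℂ, (Summable fun n => ‖γ n‖ * (Vale.Agent.P139.A.W (2 * d) n)⁻¹) →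
    ∀ M : ℝ, ∑' n, ‖γ n‖ * (Vale.Agent.P139.A.W (2 * d) n)⁻¹ ≤ M →
    ∀ B : Finset (Lat d), (0 : Lat d) ∉ B →
      nL B (fun n => WW α N n * (1 + sqNorm n) ^ (k + d + 1))
        (fun n => γ n * ((Real.sqrt (1 + sqNorm n) ^ (-α) : ℝ) : ℂ)) ≤
        C * M * (2 : ℝ) ^ (-α / 4) := by
  obtain ⟨C, hC, α₁, h⟩ := data_both d k
  exact ⟨C, hC, α₁, fun α hα N _ γ hs M hM B hB => (h γ M hs hM α hα).1 N B hB⟩

end Vale.Agent.P139.BN
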