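import Vale.Agent.P139.R2.H556.Defs

/-!
P139-N, R6 (helper940): chain rule along a curve, the energy identity.
-/

set_option autoImplicit false

open MvPolynomial Finset
open scoped ComplexConjugate

namespace Vale.Agent.P139.R2.H940

open Vale.Agent.P139.BN Vale.Agent.P139.A

/-- chain rule for the evaluation of a polynomial along a curve -/
theorem deriv_eval {σ : Type*} [Fintype σ] (P : MvPolynomial σ ℂ) {y : ℝ → σ → ℂ} {y' : σ → ℂ}
    {s : Set ℝ} {t : ℝ} (h : ∀ v, HasDerivWithinAt (fun t => y t v) (y' v) s t) :
    HasDerivWithinAt (fun t => eval (y t) P) (∑ v, eval (y t) (pderiv v P) * y' v) s t := by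
  classical
  induction P using MvPolynomial.induction_on with
  | C a =>
    have e : ∑ v, eval (y t) (pderiv v (C a : MvPolynomial σ ℂ)) * y' v = 0 := by
      refine Finset.sum_eq_zero fun v _ => ?_
      rw [pderiv_C, map_zero, zero_mul]
    rw [e]
    simp only [eval_C]
    exact hasDerivWithinAt_const _ _ _
  | add p q hp hq =>
    have h1 := hp.add hq
    have e : ∑ v, eval (y t) (pderiv v (p + q)) * y' v =
        ∑ v, eval (y t) (pderiv v p) * y' v + ∑ v, eval (y t) (pderiv v q) * y' v := by
      rw [← Finset.sum_add_distrib]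
      refine Finset.sum_congr rfl fun v _ => ?_
      rw [map_add, map_add, add_mul]
    rw [e]
    refine h1.congr_of_eventuallyEq (Filter.Eventually.of_forall fun u => ?_) ?_
    · simp only [map_add, Pi.add_apply]
    · simp only [map_add, Pi.add_apply]
  | mul_X p i hp =>
    have h1 := hp.mul (h i)
    have e : ∑ v, eval (y t) (pderiv v (p * X i)) * y' v =
        (∑ v, eval (y t) (pderiv v p) * y' v) * y t i + eval (y t) p * y' i := by
      have e1 : ∀ v, eval (y t) (pderiv v (p * X i)) * y' v =
          (eval (y t) (pderiv v p) * y' v) * y t i +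
            (if v = i then eval (y t) p * y' i else 0) := by
        intro v
        rw [Derivation.leibniz, pderiv_X]
        by_cases hv : v = i
        · subst hv
          simp only [Pi.single_eq_same, smul_eq_mul, map_add, map_mul, eval_X, if_true, map_one]
          ring
        · rw [Pi.single_eq_of_ne (Ne.symm hv), if_neg hv]
          simp only [smul_eq_mul, mul_zero, zero_add, map_mul, eval_X, add_zero]
          ring
      rw [Finset.sum_congr rfl fun v _ => e1 v, Finset.sum_add_distrib, Finset.sum_ite_eq' univ i,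
        if_pos (Finset.mem_univ i), Finset.sum_mul]
    rw [e]
    refine h1.congr_of_eventuallyEq (Filter.Eventually.of_forall fun u => ?_) ?_
    · simp only [map_mul, eval_X, Pi.mul_apply]
    · simp only [map_mul, eval_X, Pi.mul_apply]

variable {ι : Type} [Fintype ι]

omit [Fintype ι] in
theorem pt_true (z : ι → ℂ) (n : ι) : pt z (n, true) = z n := if_pos rfl

omit [Fintype ι] in
theorem pt_false (z : ι → ℂ) (n : ι) : pt z (n, false) = conj (z n) := if_neg Bool.false_ne_true

omit [Fintype ι] in
/-- the derivative of the point of a curve -/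
theorem deriv_pt {z : ℝ → ι → ℂ} {D : ι → ℂ} {s : Set ℝ} {t : ℝ}
    (h : ∀ n, HasDerivWithinAt (fun t => z t n) (D n) s t) (v : ι × Bool) :
    HasDerivWithinAt (fun t => pt (z t) v) (pt D v) s t := by
  obtain ⟨n, b⟩ := v
  cases b with
  | true => simpa only [pt_true] using h n
  | false =>
    have h1 := (h n).star
    have e1 : (fun t => pt (z t) (n, false)) = fun t => star (z t n) :=
      funext fun u => pt_false _ _
    have e2 : pt D (n, false) = star (D n) := pt_false _ _
    rw [e1, e2]
    exact h1

theorem sum_signed (f : ι × Bool → ℂ) : ∑ v, f v = ∑ n : ι, (f (n, true) + f (n, false)) := by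
  rw [Fintype.sum_prod_type]
  refine Finset.sum_congr rfl fun n _ => ?_
  rw [Fintype.sum_bool]

/-- the Hamiltonian part of the derivative is the bracket -/
theorem flow_sum (P H : Pl ι) (z ρ : ι → ℂ)
    (hr : ∀ n, conj (eval (pt z) (pderiv (n, false) H)) = eval (pt z) (pderiv (n, true) H)) :
    ∑ v, eval (pt z) (pderiv v P) *
        pt (fun n => -Complex.I * eval (pt z) (pderiv (n, false) H) + ρ n) v =
      -Complex.I * eval (pt z) (br P H) + ∑ v, eval (pt z) (pderiv v P) * pt ρ v := by
  rw [sum_signed, sum_signed]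
  have e2 : eval (pt z) (br P H) = ∑ n : ι,
      (eval (pt z) (pderiv (n, true) P) * eval (pt z) (pderiv (n, false) H) -
        eval (pt z) (pderiv (n, false) P) * eval (pt z) (pderiv (n, true) H)) := by
    unfold br
    rw [map_sum]
    refine Finset.sum_congr rfl fun n _ => ?_
    rw [map_sub, map_mul, map_mul]
  rw [e2, Finset.mul_sum, ← Finset.sum_add_distrib]
  refine Finset.sum_congr rfl fun n _ => ?_
  rw [pt_true, pt_false, pt_true, pt_false, map_add, map_mul, map_neg, Complex.conj_I, hr n]
  ring

theorem br_sum_left {κ : Type*} (s : Finset κ) (E : κ → Pl ι) (Q : Pl ι) :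
    br (∑ i ∈ s, E i) Q = ∑ i ∈ s, br (E i) Q := by
  unfold br
  rw [Finset.sum_comm]
  refine Finset.sum_congr rfl fun n _ => ?_
  rw [map_sum, map_sum, Finset.sum_mul, Finset.sum_mul, ← Finset.sum_sub_distrib]

theorem br_sum_right {κ : Type*} (s : Finset κ) (P : Pl ι) (H : κ → Pl ι) :
    br P (∑ i ∈ s, H i) = ∑ i ∈ s, br P (H i) := by
  unfold br
  rw [Finset.sum_comm]
  refine Finset.sum_congr rfl fun n _ => ?_
  rw [map_sum, map_sum, Finset.mul_sum, Finset.mul_sum, ← Finset.sum_sub_distrib]

theorem br_zero_right (P : Pl ι) : br P 0 = 0 := by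
  unfold br
  refine Finset.sum_eq_zero fun n _ => ?_
  rw [map_zero, map_zero, mul_zero, mul_zero, sub_zero]

theorem br_swap (P Q : Pl ι) : br P Q = -br Q P := by
  unfold br
  rw [← Finset.sum_neg_distrib]
  refine Finset.sum_congr rfl fun n _ => ?_
  ring

/-- regrouping of the double sum -/
theorem br_split (N L : ℕ) (E H : ℕ → Pl ι) (hL : ∀ r, L < r → H r = 0) :
    br (∑ i ∈ range (N + 1), E i) (∑ j ∈ range (L + 1), H j) =
      ∑ r ∈ range (N + 1), sbr E H r +
        ∑ p ∈ (range (N + 1) ×ˢ range (L + 1)).filter (fun p => N < p.1 + p.2),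
          br (E p.1) (H p.2) := by
  have e0 : br (∑ i ∈ range (N + 1), E i) (∑ j ∈ range (L + 1), H j) =
      ∑ p ∈ range (N + 1) ×ˢ range (L + 1), br (E p.1) (H p.2) := by
    rw [br_sum_left, Finset.sum_product]
    exact Finset.sum_congr rfl fun i _ => br_sum_right _ _ _
  rw [e0, ← Finset.sum_filter_not_add_sum_filter _ (fun p : ℕ × ℕ => N < p.1 + p.2)]
  congr 1
  have e1 : ∀ p ∈ (range (N + 1) ×ˢ range (L + 1)).filter (fun p => ¬ N < p.1 + p.2),
      p.1 + p.2 ∈ range (N + 1) := by
    intro p hp
    rw [Finset.mem_filter] at hp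
    rw [Finset.mem_range]
    omega
  rw [← Finset.sum_fiberwise_of_maps_to e1]
  refine Finset.sum_congr rfl fun r hr => ?_
  unfold sbr
  rw [Finset.mem_range] at hr
  refine Finset.sum_subset (fun p hp => ?_) fun p hp hn => ?_
  · simp only [Finset.mem_filter, Finset.mem_product, Finset.mem_range] at hp
    rw [Finset.mem_antidiagonal]
    exact hp.2
  · rw [Finset.mem_antidiagonal] at hp
    have h2 : L < p.2 := by
      by_contra hc
      apply hn
      simp only [Finset.mem_filter, Finset.mem_product, Finset.mem_range]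
      omega
    rw [hL _ h2, br_zero_right]

end Vale.Agent.P139.R2.H940
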